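import Mathlib

/-!
# P207 (line N4): the pairing of symmetric tensors with bilinear forms
-/

open Set Metric Filter Topology
open scoped ContDiff

noncomputable section

namespace Vale.Agent.P207.H751

section Fm

variable (V : Type) [NormedAddCommGroup V] [NormedSpace ℝ V]

/-- bilinear forms (a copy of `V →L[ℝ] V →L[ℝ] ℝ`) -/
def Fm : Type := V →L[ℝ] V →L[ℝ] ℝ

instance : NormedAddCommGroup (Fm V) := inferInstanceAs (NormedAddCommGroup (V →L[ℝ] V →L[ℝ] ℝ))

instance : NormedSpace ℝ (Fm V) := inferInstanceAs (NormedSpace ℝ (V →L[ℝ] V →L[ℝ] ℝ))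

instance [FiniteDimensional ℝ V] : FiniteDimensional ℝ (Fm V) :=
  inferInstanceAs (FiniteDimensional ℝ (V →L[ℝ] V →L[ℝ] ℝ))

variable {V}

/-- the underlying form -/
def Fm.f (s : Fm V) : V →L[ℝ] V →L[ℝ] ℝ := s

/-- the identity -/
def Fm.of (s : V →L[ℝ] V →L[ℝ] ℝ) : Fm V := s

theorem Fm.f_of (s : V →L[ℝ] V →L[ℝ] ℝ) : (Fm.of s).f = s := rfl

theorem Fm.f_add (s t : Fm V) : (s + t).f = s.f + t.f := rfl

theorem Fm.f_smul (c : ℝ) (s : Fm V) : (c • s).f = c • s.f := rfl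

theorem Fm.norm_f (s : Fm V) : ‖s.f‖ = ‖s‖ := rfl

theorem Fm.ext {s t : Fm V} (h : ∀ x y, s.f x y = t.f x y) : s = t := by
  have : s.f = t.f := by
    ext x y
    exact h x y
  exact this

theorem Fm.le (s : Fm V) (x y : V) : ‖s.f x y‖ ≤ ‖s‖ * ‖x‖ * ‖y‖ := by
  calc ‖s.f x y‖ ≤ ‖s.f x‖ * ‖y‖ := (s.f x).le_opNorm _
    _ ≤ ‖s‖ * ‖x‖ * ‖y‖ := by
      gcongr
      exact s.f.le_opNorm x

theorem Fm.norm_le {s : Fm V} {C : ℝ} (hC : 0 ≤ C) (h : ∀ x y, ‖s.f x y‖ ≤ C * ‖x‖ * ‖y‖) :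
    ‖s‖ ≤ C := by
  rw [← Fm.norm_f]
  exact ContinuousLinearMap.opNorm_le_bound₂ _ hC h

/-- evaluation at a pair -/
def ev (x y : V) : Fm V →L[ℝ] ℝ :=
  LinearMap.mkContinuous
    { toFun := fun s => s.f x y
      map_add' := by intro s t; rw [Fm.f_add]; rfl
      map_smul' := by intro c s; rw [Fm.f_smul]; rfl }
    (‖x‖ * ‖y‖) (by
      intro s
      refine (s.le x y).trans (le_of_eq ?_)
      ring)

theorem ev_apply (x y : V) (s : Fm V) : ev x y s = s.f x y := rfl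

theorem ev_norm (x y : V) : ‖ev x y‖ ≤ ‖x‖ * ‖y‖ :=
  LinearMap.mkContinuous_norm_le _ (by positivity) _

/-- evaluation at a pair, as a linear map of the first vector -/
def evL (y : V) : V →L[ℝ] (Fm V →L[ℝ] ℝ) :=
  LinearMap.mkContinuous
    { toFun := fun x => ev x y
      map_add' := by
        intro x x'
        refine ContinuousLinearMap.ext fun s => ?_
        show s.f (x + x') y = s.f x y + s.f x' y
        rw [map_add]
        rfl
      map_smul' := by
        intro c x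
        refine ContinuousLinearMap.ext fun s => ?_
        show s.f (c • x) y = c • s.f x y
        rw [map_smul]
        rfl }
    ‖y‖ (by
      intro x
      refine (ev_norm x y).trans (le_of_eq ?_)
      ring)

theorem evL_apply (x y : V) (s : Fm V) : evL y x s = s.f x y := rfl

/-- the form `s (A ·, A ·)` -/
def pb (A : V →L[ℝ] V) : Fm V →L[ℝ] Fm V :=
  LinearMap.mkContinuous
    { toFun := fun s => Fm.of ((s.f.comp A).flip.comp A).flip
      map_add' := by
        intro s t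
        refine Fm.ext fun x y => ?_
        simp only [Fm.f_of, Fm.f_add, ContinuousLinearMap.flip_apply,
          ContinuousLinearMap.comp_apply, add_apply]
      map_smul' := by
        intro c s
        refine Fm.ext fun x y => ?_
        simp only [Fm.f_of, Fm.f_smul, ContinuousLinearMap.flip_apply,
          ContinuousLinearMap.comp_apply, smul_apply, RingHom.id_apply] }
    (‖A‖ ^ 2) (by
      intro s
      refine Fm.norm_le (by positivity) fun x y => ?_
      have e : (Fm.of ((s.f.comp A).flip.comp A).flip).f x y = s.f (A x) (A y) := by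
        simp only [Fm.f_of, ContinuousLinearMap.flip_apply, ContinuousLinearMap.comp_apply]
      show ‖(Fm.of ((s.f.comp A).flip.comp A).flip).f x y‖ ≤ _
      rw [e]
      calc ‖s.f (A x) (A y)‖ ≤ ‖s‖ * ‖A x‖ * ‖A y‖ := s.le _ _
        _ ≤ ‖s‖ * (‖A‖ * ‖x‖) * (‖A‖ * ‖y‖) := by gcongr <;> exact A.le_opNorm _
        _ = ‖A‖ ^ 2 * ‖s‖ * ‖x‖ * ‖y‖ := by ring)

theorem pb_apply (A : V →L[ℝ] V) (s : Fm V) (x y : V) : (pb A s).f x y = s.f (A x) (A y) := by
  show (Fm.of ((s.f.comp A).flip.comp A).flip).f x y = _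
  simp only [Fm.f_of, ContinuousLinearMap.flip_apply, ContinuousLinearMap.comp_apply]

theorem pb_norm (A : V →L[ℝ] V) (s : Fm V) : ‖pb A s‖ ≤ ‖A‖ ^ 2 * ‖s‖ :=
  ((pb A).le_opNorm s).trans (mul_le_mul_of_nonneg_right
    (LinearMap.mkContinuous_norm_le _ (by positivity) _) (norm_nonneg _))

theorem pb_pb (A A' : V →L[ℝ] V) (s : Fm V) : pb A (pb A' s) = pb (A'.comp A) s :=
  Fm.ext fun x y => by simp only [pb_apply, ContinuousLinearMap.comp_apply]

theorem pb_id (s : Fm V) : pb (ContinuousLinearMap.id ℝ V) s = s :=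
  Fm.ext fun x y => by simp only [pb_apply, ContinuousLinearMap.id_apply]

/-- the action of an isomorphism on forms: `s ↦ s (A⁻¹ ·, A⁻¹ ·)` -/
def act (A : V ≃L[ℝ] V) : Fm V ≃L[ℝ] Fm V :=
  ContinuousLinearEquiv.equivOfInverse (pb (A.symm : V →L[ℝ] V)) (pb (A : V →L[ℝ] V))
    (by
      intro s
      rw [pb_pb, ContinuousLinearEquiv.coe_symm_comp_coe, pb_id])
    (by
      intro s
      rw [pb_pb, ContinuousLinearEquiv.coe_comp_coe_symm, pb_id])

theorem act_apply (A : V ≃L[ℝ] V) (s : Fm V) (x y : V) :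
    (act A s).f x y = s.f (A.symm x) (A.symm y) := pb_apply _ _ _ _

theorem act_symm_apply (A : V ≃L[ℝ] V) (s : Fm V) (x y : V) :
    ((act A).symm s).f x y = s.f (A x) (A y) := pb_apply _ _ _ _

theorem act_norm (A : V ≃L[ℝ] V) (s : Fm V) :
    ‖act A s‖ ≤ ‖(A.symm : V →L[ℝ] V)‖ ^ 2 * ‖s‖ := pb_norm (A.symm : V →L[ℝ] V) s

theorem act_symm_norm (A : V ≃L[ℝ] V) (s : Fm V) :
    ‖(act A).symm s‖ ≤ ‖(A : V →L[ℝ] V)‖ ^ 2 * ‖s‖ := pb_norm (A : V →L[ℝ] V) s

theorem act_bound {A : V ≃L[ℝ] V} {c : ℝ} (hc : 0 ≤ c) (h : ∀ x, ‖A.symm x‖ ≤ c * ‖x‖) (s : Fm V) :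
    ‖act A s‖ ≤ c ^ 2 * ‖s‖ := by
  refine (act_norm A s).trans ?_
  have h1 : ‖(A.symm : V →L[ℝ] V)‖ ≤ c := ContinuousLinearMap.opNorm_le_bound _ hc h
  gcongr

theorem act_symm_bound {A : V ≃L[ℝ] V} {c : ℝ} (hc : 0 ≤ c) (h : ∀ x, ‖A x‖ ≤ c * ‖x‖)
    (s : Fm V) : ‖(act A).symm s‖ ≤ c ^ 2 * ‖s‖ := by
  refine (act_symm_norm A s).trans ?_
  have h1 : ‖(A : V →L[ℝ] V)‖ ≤ c := ContinuousLinearMap.opNorm_le_bound _ hc h
  gcongr

theorem act_trans (A A' : V ≃L[ℝ] V) (s : Fm V) : act (A.trans A') s = act A' (act A s) :=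
  Fm.ext fun x y => by simp only [act_apply, ContinuousLinearEquiv.symm_trans_apply]

end Fm

section Pairing

variable {ι : Type} [Fintype ι] {V : Type} [NormedAddCommGroup V] [InnerProductSpace ℝ V]

variable (bs : OrthonormalBasis ι ℝ V)

/-- the pairing of `N : V* → V` with the form `s`, as a continuous linear map of `N` -/
def prL : (V →L[ℝ] V) →L[ℝ] (Fm V →L[ℝ] ℝ) :=
  ∑ i, (evL (bs i)).comp (ContinuousLinearMap.apply ℝ V (bs i))

theorem prL_apply (N : V →L[ℝ] V) (s : Fm V) :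
    prL bs N s = ∑ i, s.f (N (bs i)) (bs i) := by
  unfold prL
  rw [sum_apply, sum_apply]
  rfl

/-- **equivariance of the pairing** -/
theorem prL_act [CompleteSpace V] (A : V ≃L[ℝ] V) (N : V →L[ℝ] V) (s : Fm V) :
    prL bs ((A : V →L[ℝ] V).comp (N.comp (ContinuousLinearMap.adjoint (A : V →L[ℝ] V)))) (act A s)
      = prL bs N s := by
  rw [prL_apply, prL_apply]
  have h1 : ∀ i, (act A s).f (((A : V →L[ℝ] V).comp (N.comp
      (ContinuousLinearMap.adjoint (A : V →L[ℝ] V)))) (bs i)) (bs i) =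
      ∑ j, inner ℝ (A (bs j)) (bs i) * s.f (N (bs j)) (A.symm (bs i)) := by
    intro i
    rw [act_apply]
    have e1 : A.symm (((A : V →L[ℝ] V).comp (N.comp
      (ContinuousLinearMap.adjoint (A : V →L[ℝ] V)))) (bs i)) =
      N (ContinuousLinearMap.adjoint (A : V →L[ℝ] V) (bs i)) := by
      simp
    have e2 : ContinuousLinearMap.adjoint (A : V →L[ℝ] V) (bs i) =
        ∑ j, inner ℝ (A (bs j)) (bs i) • (bs j : V) := by
      conv_lhs => rw [← bs.sum_repr' (ContinuousLinearMap.adjoint (A : V →L[ℝ] V) (bs i))]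
      refine Finset.sum_congr rfl fun j _ => ?_
      rw [ContinuousLinearMap.adjoint_inner_right]
      rfl
    rw [e1, e2, map_sum, map_sum, sum_apply]
    refine Finset.sum_congr rfl fun j _ => ?_
    rw [map_smul, map_smul]
    rfl
  rw [Finset.sum_congr rfl fun i _ => h1 i, Finset.sum_comm]
  refine Finset.sum_congr rfl fun j _ => ?_
  have e3 : ∑ i, inner ℝ (A (bs j)) (bs i) * s.f (N (bs j)) (A.symm (bs i)) =
      s.f (N (bs j)) (A.symm (∑ i, inner ℝ (bs i) (A (bs j)) • (bs i : V))) := by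
    rw [map_sum, map_sum]
    refine Finset.sum_congr rfl fun i _ => ?_
    rw [map_smul, map_smul, smul_eq_mul, real_inner_comm]
  rw [e3, bs.sum_repr', ContinuousLinearEquiv.symm_apply_apply]

end Pairing

end Vale.Agent.P207.H751
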