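import Mathlib

/-!
# P207 (line N4): calculus of bounds of derivatives on balls
-/

open Set Metric Filter Topology
open scoped ContDiff

noncomputable section

namespace Vale.Agent.P207.H751

variable {E : Type*} [NormedAddCommGroup E] [NormedSpace ℝ E]
variable {V : Type*} [NormedAddCommGroup V] [NormedSpace ℝ V]
variable {W : Type*} [NormedAddCommGroup W] [NormedSpace ℝ W]

/-- the `k`-th derivative of `f` is bounded by `C` on the set `s` -/
def DB (s : Set E) (k : ℕ) (C : ℝ) (f : E → V) : Prop :=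
  ∀ x ∈ s, ‖iteratedFDerivWithin ℝ k f s x‖ ≤ C

theorem db_iff {s : Set E} (hs : IsOpen s) {k : ℕ} {C : ℝ} {f : E → V} :
    DB s k C f ↔ ∀ x ∈ s, ‖iteratedFDeriv ℝ k f x‖ ≤ C := by
  unfold DB
  constructor
  · intro h x hx
    rw [← iteratedFDerivWithin_of_isOpen k hs hx]
    exact h x hx
  · intro h x hx
    rw [iteratedFDerivWithin_of_isOpen k hs hx]
    exact h x hx

theorem DB.mono {s : Set E} {k : ℕ} {C C' : ℝ} {f : E → V} (h : DB s k C f) (hC : C ≤ C') :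
    DB s k C' f := fun x hx => (h x hx).trans hC

theorem DB.anti {s t : Set E} (hs : IsOpen s) (ht : IsOpen t) (hst : t ⊆ s) {k : ℕ} {C : ℝ}
    {f : E → V} (h : DB s k C f) : DB t k C f := by
  rw [db_iff hs] at h
  rw [db_iff ht]
  exact fun x hx => h x (hst hx)

theorem db_zero_iff {s : Set E} {C : ℝ} {f : E → V} : DB s 0 C f ↔ ∀ x ∈ s, ‖f x‖ ≤ C := by
  unfold DB
  simp only [norm_iteratedFDerivWithin_zero]

theorem DB.congr {s : Set E} {k : ℕ} {C : ℝ} {f g : E → V} (h : DB s k C f)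
    (hfg : ∀ x ∈ s, g x = f x) : DB s k C g := by
  intro x hx
  rw [iteratedFDerivWithin_congr hfg hx]
  exact h x hx

theorem DB.add {s : Set E} (hs : IsOpen s) {k : ℕ} {C D : ℝ} {f g : E → V}
    (hf : ContDiffOn ℝ ∞ f s) (hg : ContDiffOn ℝ ∞ g s) (h : DB s k C f) (h' : DB s k D g) :
    DB s k (C + D) (fun x => f x + g x) := by
  intro x hx
  have hk : ((k : ℕ) : ℕ∞ω) ≤ (∞ : ℕ∞ω) := by exact_mod_cast le_top
  have e := fun_iteratedFDerivWithin_add_apply (i := k) (((hf x hx).of_le hk))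
    (((hg x hx).of_le hk)) hs.uniqueDiffOn hx
  rw [e]
  exact (norm_add_le _ _).trans (add_le_add (h x hx) (h' x hx))

theorem db_const_clm {s : Set E} (hs : IsOpen s) {k : ℕ} {C : ℝ} {f : E → V}
    (L : V →L[ℝ] W) {l : ℝ} (hl : ‖L‖ ≤ l)
    (hf : ContDiffOn ℝ ∞ f s) (h : DB s k C f) : DB s k (l * C) (fun x => L (f x)) := by
  intro x hx
  have hk : ((k : ℕ) : ℕ∞ω) ≤ (∞ : ℕ∞ω) := by exact_mod_cast le_top
  have e := L.iteratedFDerivWithin_comp_left (hf x hx) hs.uniqueDiffOn hx hk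
  have e' : iteratedFDerivWithin ℝ k (fun x => L (f x)) s x =
      L.compContinuousMultilinearMap (iteratedFDerivWithin ℝ k f s x) := e
  rw [e']
  refine (L.norm_compContinuousMultilinearMap_le _).trans ?_
  exact mul_le_mul hl (h x hx) (norm_nonneg _) ((norm_nonneg _).trans hl)

theorem contDiffOn_comp_ball {R d b : ℝ} {f : E → V} (B : E →L[ℝ] E)
    (hB : ∀ x, ‖B x‖ ≤ b * ‖x‖) (hb : 0 ≤ b) (hd : b * R ≤ d) (hbd : 0 < d)
    (hf : ContDiffOn ℝ ∞ f (ball 0 d)) : ContDiffOn ℝ ∞ (fun x => f (B x)) (ball 0 R) := by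
  refine hf.comp B.contDiff.contDiffOn ?_
  intro x hx
  rw [mem_ball_zero_iff] at hx ⊢
  rcases hb.eq_or_lt with h0 | h0
  · have := hB x
    rw [← h0, zero_mul] at this
    exact lt_of_le_of_lt this hbd
  · calc ‖B x‖ ≤ b * ‖x‖ := hB x
      _ < b * R := by gcongr
      _ ≤ d := hd

theorem DB.comp_ball {R d b : ℝ} {k : ℕ} {C : ℝ} {f : E → V} (B : E →L[ℝ] E)
    (hB : ∀ x, ‖B x‖ ≤ b * ‖x‖) (hb : 0 ≤ b) (hd : b * R ≤ d) (hbd : 0 < d)
    (hf : ContDiffOn ℝ ∞ f (ball 0 d)) (h : DB (ball 0 d) k C f) :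
    DB (ball 0 R) k (b ^ k * C) (fun x => f (B x)) := by
  rw [db_iff isOpen_ball]
  intro x hx
  have hk : ((k : ℕ) : ℕ∞ω) ≤ (∞ : ℕ∞ω) := by exact_mod_cast le_top
  have hBx : B x ∈ ball (0 : E) d := by
    rw [mem_ball_zero_iff] at hx ⊢
    rcases hb.eq_or_lt with h0 | h0
    · have := hB x
      rw [← h0, zero_mul] at this
      exact lt_of_le_of_lt this hbd
    · calc ‖B x‖ ≤ b * ‖x‖ := hB x
        _ < b * R := by gcongr
        _ ≤ d := hd
  have ho : IsOpen (B ⁻¹' ball (0 : E) d) := isOpen_ball.preimage B.continuous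
  have hxo : x ∈ B ⁻¹' ball (0 : E) d := hBx
  have e := B.iteratedFDerivWithin_comp_right hf isOpen_ball.uniqueDiffOn ho.uniqueDiffOn hBx hk
  rw [iteratedFDerivWithin_of_isOpen k ho hxo] at e
  have e' : iteratedFDeriv ℝ k (fun x => f (B x)) x =
      (iteratedFDerivWithin ℝ k f (ball 0 d) (B x)).compContinuousLinearMap fun _ => B := e
  rw [e']
  refine (ContinuousMultilinearMap.norm_compContinuousLinearMap_le _ _).trans ?_
  have hBn : ‖B‖ ≤ b := B.opNorm_le_bound hb hB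
  have hC : 0 ≤ C := (norm_nonneg _).trans (h _ hBx)
  calc ‖iteratedFDerivWithin ℝ k f (ball 0 d) (B x)‖ * ∏ _i : Fin k, ‖B‖
      = ‖iteratedFDerivWithin ℝ k f (ball 0 d) (B x)‖ * ‖B‖ ^ k := by
        rw [Finset.prod_const, Finset.card_univ, Fintype.card_fin]
    _ ≤ C * b ^ k := by
        exact mul_le_mul (h _ hBx) (pow_le_pow_left₀ (norm_nonneg _) hBn k) (by positivity) hC
    _ = b ^ k * C := mul_comm _ _

theorem DB.clm_apply {s : Set E} (hs : IsOpen s) {k : ℕ} {a b : ℕ → ℝ}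
    {f : E → V →L[ℝ] W} {g : E → V} (hf : ContDiffOn ℝ ∞ f s) (hg : ContDiffOn ℝ ∞ g s)
    (h : ∀ i ≤ k, DB s i (a i) f) (h' : ∀ i ≤ k, DB s i (b i) g) :
    DB s k (∑ i ∈ Finset.range (k + 1), (k.choose i : ℝ) * a i * b (k - i))
      (fun x => f x (g x)) := by
  intro x hx
  have hk : ((k : ℕ) : ℕ∞ω) ≤ (∞ : ℕ∞ω) := by exact_mod_cast le_top
  refine (norm_iteratedFDerivWithin_clm_apply hf hg hs.uniqueDiffOn hx hk).trans ?_
  refine Finset.sum_le_sum fun i hi => ?_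
  rw [Finset.mem_range] at hi
  have h1 := h i (by omega) x hx
  have h2 := h' (k - i) (by omega) x hx
  have h3 : 0 ≤ a i := (norm_nonneg _).trans h1
  gcongr

end Vale.Agent.P207.H751
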