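import Vale.Agent.P207.H751.Pair
import Vale.Agent.P207.H80.Eqn
import Vale.Agent.P207.H106.Aff.Use1

/-!
# P207, quarter pinching: the representation of `GL(E)` on bilinear forms

`prF E : PRep E (Fm E)`, `rep B s = s (B ·, B ·)`; it is polynomial in `B` (`prF_pol`);
`act A = (prF E).rep A.symm`; `act_d` : `act A (d Y s) = d (A Y A⁻¹) (act A s)`.
-/

open Set Metric Filter Topology
open scoped ContDiff

noncomputable section

namespace Vale.Agent.P207.H751

open Vale.Agent.P207.H734 Vale.Agent.P207.H80.Orb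

variable {E : Type} [NormedAddCommGroup E] [NormedSpace ℝ E]

/-- the form `s (B ·, C ·)` -/
def pbc (B C : E →L[ℝ] E) : Fm E →L[ℝ] Fm E :=
  LinearMap.mkContinuous
    { toFun := fun s => Fm.of ((s.f.comp B).flip.comp C).flip
      map_add' := by
        intro s t
        refine Fm.ext fun x y => ?_
        simp only [Fm.f_of, Fm.f_add, ContinuousLinearMap.flip_apply,
          ContinuousLinearMap.comp_apply, add_apply]
      map_smul' := by
        intro c s
        refine Fm.ext fun x y => ?_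
        simp only [Fm.f_of, Fm.f_smul, ContinuousLinearMap.flip_apply,
          ContinuousLinearMap.comp_apply, smul_apply, RingHom.id_apply] }
    (‖B‖ * ‖C‖) (by
      intro s
      refine Fm.norm_le (by positivity) fun x y => ?_
      have e : (Fm.of ((s.f.comp B).flip.comp C).flip).f x y = s.f (B x) (C y) := by
        simp only [Fm.f_of, ContinuousLinearMap.flip_apply, ContinuousLinearMap.comp_apply]
      show ‖(Fm.of ((s.f.comp B).flip.comp C).flip).f x y‖ ≤ _
      rw [e]
      calc ‖s.f (B x) (C y)‖ ≤ ‖s‖ * ‖B x‖ * ‖C y‖ := s.le _ _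
        _ ≤ ‖s‖ * (‖B‖ * ‖x‖) * (‖C‖ * ‖y‖) := by
          gcongr
          · exact B.le_opNorm _
          · exact C.le_opNorm _
        _ = ‖B‖ * ‖C‖ * ‖s‖ * ‖x‖ * ‖y‖ := by ring)

theorem pbc_apply (B C : E →L[ℝ] E) (s : Fm E) (x y : E) :
    (pbc B C s).f x y = s.f (B x) (C y) := by
  show (Fm.of ((s.f.comp B).flip.comp C).flip).f x y = _
  simp only [Fm.f_of, ContinuousLinearMap.flip_apply, ContinuousLinearMap.comp_apply]

theorem pbc_norm (B C : E →L[ℝ] E) : ‖pbc B C‖ ≤ ‖B‖ * ‖C‖ :=
  LinearMap.mkContinuous_norm_le _ (by positivity) _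

/-- the form `s (B ·, C ·)`, as a continuous bilinear map of `B`, `C` -/
def pb2 (E : Type) [NormedAddCommGroup E] [NormedSpace ℝ E] :
    (E →L[ℝ] E) →L[ℝ] (E →L[ℝ] E) →L[ℝ] (Fm E →L[ℝ] Fm E) :=
  LinearMap.mkContinuous₂ (LinearMap.mk₂ ℝ (fun B C : E →L[ℝ] E => pbc B C)
    (by
      intro B B' C
      refine ContinuousLinearMap.ext fun s => Fm.ext fun x y => ?_
      show (pbc (B + B') C s).f x y = (pbc B C s).f x y + (pbc B' C s).f x y
      rw [pbc_apply, pbc_apply, pbc_apply, add_apply, map_add, add_apply])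
    (by
      intro c B C
      refine ContinuousLinearMap.ext fun s => Fm.ext fun x y => ?_
      show (pbc (c • B) C s).f x y = c • (pbc B C s).f x y
      rw [pbc_apply, pbc_apply, smul_apply, map_smul, smul_apply])
    (by
      intro B C C'
      refine ContinuousLinearMap.ext fun s => Fm.ext fun x y => ?_
      show (pbc B (C + C') s).f x y = (pbc B C s).f x y + (pbc B C' s).f x y
      rw [pbc_apply, pbc_apply, pbc_apply, add_apply, map_add])
    (by
      intro c B C
      refine ContinuousLinearMap.ext fun s => Fm.ext fun x y => ?_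
      show (pbc B (c • C) s).f x y = c • (pbc B C s).f x y
      rw [pbc_apply, pbc_apply, smul_apply, map_smul])) 1 (by
      intro B C
      rw [one_mul]
      exact pbc_norm B C)

theorem pb2_apply (B C : E →L[ℝ] E) (s : Fm E) (x y : E) :
    (pb2 E B C s).f x y = s.f (B x) (C y) := pbc_apply B C s x y

theorem pb2_self (B : E →L[ℝ] E) : pb2 E B B = pb B :=
  ContinuousLinearMap.ext fun s => Fm.ext fun x y => by rw [pb2_apply, pb_apply]

/-- the derived action `s ↦ s (Y ·, ·) + s (·, Y ·)` -/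
def dF (E : Type) [NormedAddCommGroup E] [NormedSpace ℝ E] :
    (E →L[ℝ] E) →L[ℝ] (Fm E →L[ℝ] Fm E) :=
  (pb2 E).flip (ContinuousLinearMap.id ℝ E) + pb2 E (ContinuousLinearMap.id ℝ E)

theorem dF_apply (Y : E →L[ℝ] E) (s : Fm E) (x y : E) :
    (dF E Y s).f x y = s.f (Y x) y + s.f x (Y y) := by
  show ((pb2 E Y (ContinuousLinearMap.id ℝ E) + pb2 E (ContinuousLinearMap.id ℝ E) Y) s).f x y = _
  rw [add_apply, Fm.f_add, add_apply, add_apply, pb2_apply, pb2_apply]
  rfl

theorem pb_one_add (t : ℝ) (Y : E →L[ℝ] E) :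
    pb (1 + t • Y) = 1 + (t • dF E Y + t ^ 2 • pb Y) := by
  refine ContinuousLinearMap.ext fun s => Fm.ext fun x y => ?_
  rw [pb_apply]
  have e1 : ((1 + (t • dF E Y + t ^ 2 • pb Y) : Fm E →L[ℝ] Fm E) s).f x y =
      s.f x y + (t * (dF E Y s).f x y + t ^ 2 * (pb Y s).f x y) := rfl
  rw [e1, dF_apply, pb_apply]
  have e2 : (1 + t • Y) x = x + t • Y x := rfl
  have e3 : (1 + t • Y) y = y + t • Y y := rfl
  rw [e2, e3]
  simp only [map_add, map_smul, add_apply, smul_apply, smul_eq_mul]
  ring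

/-- **the representation on forms** -/
def prF (E : Type) [NormedAddCommGroup E] [NormedSpace ℝ E] : PRep E (Fm E) where
  rep B := pb B
  d := dF E
  one := ContinuousLinearMap.ext fun s => pb_id s
  mul B C := ContinuousLinearMap.ext fun s => (pb_pb B C s).symm
  cont := by
    have h1 : (fun B : E →L[ℝ] E => pb B) = fun B => pb2 E B B := funext fun B => (pb2_self B).symm
    rw [h1]
    fun_prop
  der Y := by
    have h1 : (fun t : ℝ => pb (1 + t • Y)) = fun t => 1 + (t • dF E Y + t ^ 2 • pb Y) :=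
      funext fun t => pb_one_add t Y
    rw [h1]
    have h2 : HasDerivAt (fun t : ℝ => t • dF E Y) ((1 : ℝ) • dF E Y) 0 :=
      (hasDerivAt_id (0 : ℝ)).smul_const (dF E Y)
    have h3 : HasDerivAt (fun t : ℝ => t ^ 2 • pb Y) (((2 : ℕ) * (0 : ℝ) ^ (2 - 1)) • pb Y) 0 :=
      (hasDerivAt_pow 2 (0 : ℝ)).smul_const (pb Y)
    have h4 := (h2.add h3).const_add (1 : Fm E →L[ℝ] Fm E)
    simpa using h4

theorem prF_rep (B : E →L[ℝ] E) : (prF E).rep B = pb B := rfl

theorem prF_d : (prF E).d = dF E := rfl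

theorem act_rep (A : E ≃L[ℝ] E) (s : Fm E) : act A s = (prF E).rep (A.symm : E →L[ℝ] E) s := rfl

theorem act_dF (A : E ≃L[ℝ] E) (Y : E →L[ℝ] E) (s : Fm E) :
    act A (dF E Y s) = dF E (H106.Aff.cj A Y) (act A s) := by
  refine Fm.ext fun x y => ?_
  rw [act_apply, dF_apply, dF_apply, act_apply, act_apply]
  have e1 : ∀ z, A.symm (H106.Aff.cj A Y z) = Y (A.symm z) := fun z => by
    show A.symm (A (Y (A.symm z))) = _
    rw [A.symm_apply_apply]
  rw [e1, e1]

/-- **it is polynomial** -/
theorem prF_pol [FiniteDimensional ℝ E] : (prF E).IsPol := by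
  intro l w
  set b := Module.finBasis ℝ (E →L[ℝ] E)
  have h1 : (fun B : E →L[ℝ] E => l ((prF E).rep B w)) = fun B => ∑ i, ∑ j,
      (LinearMap.toContinuousLinearMap (b.coord i)) B *
        ((LinearMap.toContinuousLinearMap (b.coord j)) B * l (pb2 E (b i) (b j) w)) := by
    funext B
    rw [prF_rep, ← pb2_self]
    have h2 : B = ∑ i, b.coord i B • b i := (b.sum_repr B).symm
    have h3 : pb2 E B B w = ∑ i, ∑ j, (b.coord i B * b.coord j B) • pb2 E (b i) (b j) w := by
      have h4 : ∀ C, pb2 E B C w = ∑ i, b.coord i B • pb2 E (b i) C w := by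
        intro C
        conv_lhs => rw [h2]
        rw [map_sum, sum_apply, sum_apply]
        exact Finset.sum_congr rfl fun i _ => by rw [map_smul]; rfl
      have h5 : ∀ D, pb2 E D B w = ∑ j, b.coord j B • pb2 E D (b j) w := by
        intro D
        conv_lhs => rw [h2]
        rw [map_sum, sum_apply]
        exact Finset.sum_congr rfl fun i _ => by rw [map_smul]; rfl
      rw [h4]
      refine Finset.sum_congr rfl fun i _ => ?_
      rw [h5, Finset.smul_sum]
      exact Finset.sum_congr rfl fun j _ => by rw [smul_smul]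
    rw [h3, map_sum]
    refine Finset.sum_congr rfl fun i _ => ?_
    rw [map_sum]
    refine Finset.sum_congr rfl fun j _ => ?_
    rw [map_smul, smul_eq_mul, mul_assoc]
    rfl
  rw [h1]
  exact Pol.sum _ fun i _ => Pol.sum _ fun j _ =>
    Pol.mul (Pol.lin _) (Pol.mul (Pol.lin _) (Pol.const _))

end Vale.Agent.P207.H751
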