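import Vale.Agent.P207.H751.DB

/-!
# P207 (line N4): zooming in along one orbit of discs (the core of Lemma Q)
-/

open Set Metric Filter Topology
open scoped ContDiff

noncomputable section

namespace Vale.Agent.P207.H751

/-- One orbit of discs, `j = 0, 1, 2, …`, in affine charts. `A j : E → E` is the flow from the disc
`j` to the disc `j + 1` (expanding), `L j` its action on the forms, `N j x` the tensor, `S j` the
space of the forms `s` for which `N j · s` is smooth, `P j` a projection with kernel `S j`. -/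
structure Orb (E W : Type*) [NormedAddCommGroup E] [NormedSpace ℝ E] [NormedAddCommGroup W]
    [NormedSpace ℝ W] where
  A : ℕ → E ≃L[ℝ] E
  L : ℕ → W ≃L[ℝ] W
  N : ℕ → E → W →L[ℝ] ℝ
  Er : ℕ → E → W →L[ℝ] ℝ
  S : ℕ → Submodule ℝ W
  P : ℕ → W →L[ℝ] W
  R : ℝ
  lam : ℝ
  Lam : ℝ
  cw : ℝ
  M : ℕ → ℝ
  R_pos : 0 < R
  lam_pos : 0 < lam
  lam_lt : lam < 1
  Lam_nonneg : 0 ≤ Lam
  pinch : lam ^ 3 * Lam < 1
  M_nonneg : ∀ k, 0 ≤ M k
  A_bd : ∀ j x, ‖(A j).symm x‖ ≤ lam * ‖x‖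
  L_bd : ∀ j s, ‖L j s‖ ≤ lam ^ 2 * ‖s‖
  L_symm_bd : ∀ j s, ‖(L j).symm s‖ ≤ Lam * ‖s‖
  coc : ∀ j, ∀ x ∈ ball (0 : E) R, ∀ s, N (j + 1) x (L j s) = N j ((A j).symm x) s + Er j x (L j s)
  Er_smooth : ∀ j, ContDiffOn ℝ ∞ (Er j) (ball 0 R)
  Er_bd : ∀ j k, DB (ball 0 R) k (M k) (Er j)
  S_iff : ∀ j s, L j s ∈ S (j + 1) ↔ s ∈ S j
  S_smooth : ∀ j, ∀ s ∈ S j, ContDiffOn ℝ ∞ (fun x => N j x s) (ball 0 R)
  S_bd : ∀ j k, ∀ s ∈ S j, DB (ball 0 R) k (M k * ‖s‖) (fun x => N j x s)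
  N_bd : ∀ j, ∀ x ∈ ball (0 : E) R, ‖N j x‖ ≤ M 0
  P_mem : ∀ j s, s - P j s ∈ S j
  P_zero : ∀ j, ∀ s ∈ S j, P j s = 0
  P_norm : ∀ j s, ‖P j s‖ ≤ cw * ‖s‖

namespace Orb

variable {E : Type*} [NormedAddCommGroup E] [NormedSpace ℝ E]
variable {W : Type*} [NormedAddCommGroup W] [NormedSpace ℝ W]
variable (o : Orb E W)

/-- the action on forms, from the disc `0` to the disc `j` -/
def C : ℕ → W →L[ℝ] W
  | 0 => ContinuousLinearMap.id ℝ W
  | j + 1 => (o.L j : W →L[ℝ] W).comp (C j)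

/-- the contraction from the disc `T` to the disc `0` -/
def B : ℕ → E →L[ℝ] E
  | 0 => ContinuousLinearMap.id ℝ E
  | T + 1 => (B T).comp ((o.A T).symm : E →L[ℝ] E)

theorem C_succ (j : ℕ) (s : W) : o.C (j + 1) s = o.L j (o.C j s) := rfl

theorem B_succ (T : ℕ) (x : E) : o.B (T + 1) x = o.B T ((o.A T).symm x) := rfl

theorem C_bd (j : ℕ) (s : W) : ‖o.C j s‖ ≤ (o.lam ^ 2) ^ j * ‖s‖ := by
  induction j with
  | zero => simp [C]
  | succ j ih =>
    rw [C_succ]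
    have hl := o.lam_pos
    calc ‖o.L j (o.C j s)‖ ≤ o.lam ^ 2 * ‖o.C j s‖ := o.L_bd j _
      _ ≤ o.lam ^ 2 * ((o.lam ^ 2) ^ j * ‖s‖) := by gcongr
      _ = (o.lam ^ 2) ^ (j + 1) * ‖s‖ := by ring

theorem C_norm (j : ℕ) : ‖o.C j‖ ≤ (o.lam ^ 2) ^ j :=
  (o.C j).opNorm_le_bound (by have := o.lam_pos; positivity) (o.C_bd j)

theorem B_bd (T : ℕ) (x : E) : ‖o.B T x‖ ≤ o.lam ^ T * ‖x‖ := by
  induction T generalizing x with
  | zero => simp [B]
  | succ T ih =>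
    rw [B_succ]
    have hl := o.lam_pos
    calc ‖o.B T ((o.A T).symm x)‖ ≤ o.lam ^ T * ‖(o.A T).symm x‖ := ih _
      _ ≤ o.lam ^ T * (o.lam * ‖x‖) := by gcongr; exact o.A_bd T x
      _ = o.lam ^ (T + 1) * ‖x‖ := by ring

theorem A_mem {T : ℕ} {x : E} (hx : x ∈ ball (0 : E) o.R) : (o.A T).symm x ∈ ball (0 : E) o.R := by
  rw [mem_ball_zero_iff] at hx ⊢
  have h := o.A_bd T x
  have h1 := o.lam_lt
  have h2 := o.lam_pos
  nlinarith [norm_nonneg x]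

/-- accumulated error of the cocycle -/
def H : ℕ → E → W →L[ℝ] ℝ
  | 0 => fun _ => 0
  | T + 1 => fun x => H T ((o.A T).symm x) + (o.Er T x).comp (o.C (T + 1))

theorem H_succ (T : ℕ) (x : E) :
    o.H (T + 1) x = o.H T ((o.A T).symm x) + (o.Er T x).comp (o.C (T + 1)) := rfl

theorem N_C (T : ℕ) : ∀ x ∈ ball (0 : E) o.R, ∀ s,
    o.N T x (o.C T s) = o.N 0 (o.B T x) s + o.H T x s := by
  induction T with
  | zero =>
    intro x _ s
    simp [C, B, H]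
  | succ T ih =>
    intro x hx s
    rw [C_succ, o.coc T x hx, ih _ (o.A_mem hx), B_succ, H_succ]
    simp only [add_apply, ContinuousLinearMap.comp_apply, C_succ]
    ring

theorem R_mul_le : o.lam * o.R ≤ o.R := by
  have h1 := o.lam_lt
  have h2 := o.R_pos
  nlinarith

/-- composition with the inverse of the flow -/
theorem smooth_comp {V : Type*} [NormedAddCommGroup V] [NormedSpace ℝ V] {f : E → V} (T : ℕ)
    (hf : ContDiffOn ℝ ∞ f (ball 0 o.R)) :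
    ContDiffOn ℝ ∞ (fun x => f ((o.A T).symm x)) (ball 0 o.R) :=
  contDiffOn_comp_ball ((o.A T).symm : E →L[ℝ] E) (o.A_bd T) o.lam_pos.le o.R_mul_le o.R_pos hf

theorem db_comp {V : Type*} [NormedAddCommGroup V] [NormedSpace ℝ V] {f : E → V} (T : ℕ) {k : ℕ}
    {c : ℝ} (hf : ContDiffOn ℝ ∞ f (ball 0 o.R)) (h : DB (ball 0 o.R) k c f) :
    DB (ball 0 o.R) k (o.lam ^ k * c) (fun x => f ((o.A T).symm x)) :=
  DB.comp_ball ((o.A T).symm : E →L[ℝ] E) (o.A_bd T) o.lam_pos.le o.R_mul_le o.R_pos hf h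

theorem H_smooth (T : ℕ) : ContDiffOn ℝ ∞ (o.H T) (ball 0 o.R) := by
  induction T with
  | zero => exact contDiffOn_const
  | succ T ih =>
    have e : o.H (T + 1) = fun x => o.H T ((o.A T).symm x) +
        (ContinuousLinearMap.compL ℝ W W ℝ).flip (o.C (T + 1)) (o.Er T x) := rfl
    rw [e]
    exact (o.smooth_comp T ih).add
      (((ContinuousLinearMap.compL ℝ W W ℝ).flip (o.C (T + 1))).contDiff.comp_contDiffOn
        (o.Er_smooth T))

theorem pre_norm (j : ℕ) : ‖(ContinuousLinearMap.compL ℝ W W ℝ).flip (o.C j)‖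
    ≤ (o.lam ^ 2) ^ j := by
  have hl := o.lam_pos
  refine ContinuousLinearMap.opNorm_le_bound _ (by positivity) fun f => ?_
  have e : (ContinuousLinearMap.compL ℝ W W ℝ).flip (o.C j) f = f.comp (o.C j) := rfl
  rw [e]
  refine (f.opNorm_comp_le _).trans ?_
  rw [mul_comm]
  exact mul_le_mul_of_nonneg_right (o.C_norm j) (norm_nonneg _)

theorem H_bd (k T : ℕ) :
    DB (ball 0 o.R) k (o.M k * T * o.lam ^ (min k 2 * T)) (o.H T) := by
  have hl := o.lam_pos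
  have hl1 := o.lam_lt.le
  have hM := o.M_nonneg k
  induction T with
  | zero =>
    intro x hx
    have e : iteratedFDerivWithin ℝ k (o.H 0) (ball 0 o.R) x = 0 := by
      have : o.H 0 = fun _ => (0 : W →L[ℝ] ℝ) := rfl
      rw [this]
      simp
    rw [e]
    simp
  | succ T ih =>
    have e : o.H (T + 1) = fun x => o.H T ((o.A T).symm x) +
        (ContinuousLinearMap.compL ℝ W W ℝ).flip (o.C (T + 1)) (o.Er T x) := rfl
    rw [e]
    have h1 := o.db_comp T (o.H_smooth T) ih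
    have h2 := db_const_clm isOpen_ball ((ContinuousLinearMap.compL ℝ W W ℝ).flip (o.C (T + 1)))
      (o.pre_norm (T + 1)) (o.Er_smooth T) (o.Er_bd T k)
    have h3 : ContDiffOn ℝ ∞ (fun x =>
        (ContinuousLinearMap.compL ℝ W W ℝ).flip (o.C (T + 1)) (o.Er T x)) (ball 0 o.R) :=
      ((ContinuousLinearMap.compL ℝ W W ℝ).flip (o.C (T + 1))).contDiff.comp_contDiffOn
        (o.Er_smooth T)
    refine (DB.add isOpen_ball (o.smooth_comp T (o.H_smooth T)) h3 h1 h2).mono ?_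
    have e1 : o.lam ^ k ≤ o.lam ^ (min k 2) := pow_le_pow_of_le_one hl.le hl1 (min_le_left _ _)
    have e2 : (o.lam ^ 2) ^ (T + 1) ≤ o.lam ^ (min k 2 * (T + 1)) := by
      rw [← pow_mul]
      exact pow_le_pow_of_le_one hl.le hl1 (Nat.mul_le_mul_right _ (min_le_right _ _))
    have e3 : o.lam ^ (min k 2 * (T + 1)) = o.lam ^ (min k 2) * o.lam ^ (min k 2 * T) := by
      rw [← pow_add]; congr 1; ring
    calc o.lam ^ k * (o.M k * T * o.lam ^ (min k 2 * T)) + (o.lam ^ 2) ^ (T + 1) * o.M k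
        ≤ o.lam ^ (min k 2) * (o.M k * T * o.lam ^ (min k 2 * T)) +
          o.lam ^ (min k 2 * (T + 1)) * o.M k := by gcongr
      _ = o.M k * ((T + 1 : ℕ) : ℝ) * o.lam ^ (min k 2 * (T + 1)) := by
        rw [e3]; push_cast; ring

/-! ### The forms -/

/-- the component transverse to `S j` of the transported form -/
def r (r0 : W) (j : ℕ) : W := o.P j (o.C j r0)

theorem C_sub_r (r0 : W) (j : ℕ) : o.C j r0 - o.r r0 j ∈ o.S j := o.P_mem j _

theorem P_r (r0 : W) (j : ℕ) : o.P j (o.r r0 j) = o.r r0 j := by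
  have h := o.P_zero j _ (o.C_sub_r r0 j)
  rw [map_sub, sub_eq_zero] at h
  exact h.symm

/-- the part in `S (j+1)` of `L j (r j)` -/
def sS (r0 : W) (j : ℕ) : W := o.L j (o.r r0 j) - o.r r0 (j + 1)

theorem sS_mem (r0 : W) (j : ℕ) : o.sS r0 j ∈ o.S (j + 1) := by
  have h1 := (o.S_iff j _).2 (o.C_sub_r r0 j)
  have h2 := o.C_sub_r r0 (j + 1)
  have h3 := (o.S (j + 1)).sub_mem h2 h1
  rw [map_sub] at h3
  have e : o.sS r0 j = o.C (j + 1) r0 - o.r r0 (j + 1) - (o.L j (o.C j r0) - o.L j (o.r r0 j)) := by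
    rw [C_succ]; unfold sS; abel
  rw [e]; exact h3

theorem r_succ_eq (r0 : W) (j : ℕ) : o.r r0 (j + 1) = o.P (j + 1) (o.L j (o.r r0 j)) := by
  have h := o.P_zero (j + 1) _ (o.sS_mem r0 j)
  unfold sS at h
  rw [map_sub, sub_eq_zero, o.P_r] at h
  exact h.symm

theorem cw_mul_nonneg (s : W) : 0 ≤ o.cw * ‖s‖ := (norm_nonneg _).trans (o.P_norm 0 s)

theorem sS_norm (r0 : W) (j : ℕ) : ‖o.sS r0 j‖ ≤ (1 + o.cw) * ‖o.r r0 j‖ := by
  have hl := o.lam_pos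
  have hl1 := o.lam_lt
  have h1 := o.L_bd j (o.r r0 j)
  have h2 := o.P_norm (j + 1) (o.L j (o.r r0 j))
  rw [← r_succ_eq] at h2
  have h3 : o.lam ^ 2 ≤ 1 := pow_le_one₀ hl.le hl1.le
  have h4 : ‖o.L j (o.r r0 j)‖ ≤ ‖o.r r0 j‖ := by nlinarith [norm_nonneg (o.r r0 j)]
  have h5 : o.cw * ‖o.L j (o.r r0 j)‖ ≤ o.cw * ‖o.r r0 j‖ := by
    rcases (norm_nonneg (o.r r0 j)).eq_or_lt with h0 | h0
    · have : ‖o.L j (o.r r0 j)‖ = 0 := le_antisymm (by rw [h0]; exact h4) (norm_nonneg _)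
      rw [this, ← h0]
    · have hc : 0 ≤ o.cw := by
        have := o.cw_mul_nonneg (o.r r0 j)
        exact nonneg_of_mul_nonneg_left this h0
      gcongr
  calc ‖o.sS r0 j‖ ≤ ‖o.L j (o.r r0 j)‖ + ‖o.r r0 (j + 1)‖ := norm_sub_le _ _
    _ ≤ ‖o.r r0 j‖ + o.cw * ‖o.r r0 j‖ := by linarith
    _ = (1 + o.cw) * ‖o.r r0 j‖ := by ring

theorem exists_pull (r0 : W) (i : ℕ) : ∀ j, ∃ w, w - o.r r0 j ∈ o.S j ∧
    ‖w‖ ≤ o.Lam ^ i * ‖o.r r0 (j + i)‖ := by
  induction i with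
  | zero => intro j; exact ⟨o.r r0 j, by simp, by simp⟩
  | succ i ih =>
    intro j
    obtain ⟨w, h1, h2⟩ := ih (j + 1)
    refine ⟨(o.L j).symm w, ?_, ?_⟩
    · rw [← o.S_iff j, map_sub, ContinuousLinearEquiv.apply_symm_apply]
      have h3 := (o.S (j + 1)).sub_mem h1 (o.sS_mem r0 j)
      have e : w - o.L j (o.r r0 j) = w - o.r r0 (j + 1) - o.sS r0 j := by unfold sS; abel
      rw [e]; exact h3
    · have hL := o.Lam_nonneg
      calc ‖(o.L j).symm w‖ ≤ o.Lam * ‖w‖ := o.L_symm_bd j w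
        _ ≤ o.Lam * (o.Lam ^ i * ‖o.r r0 (j + 1 + i)‖) := by gcongr
        _ = o.Lam ^ (i + 1) * ‖o.r r0 (j + (i + 1))‖ := by
          rw [show j + 1 + i = j + (i + 1) by ring]; ring

theorem r_back (r0 : W) (j i : ℕ) : ‖o.r r0 j‖ ≤ o.cw * (o.Lam ^ i * ‖o.r r0 (j + i)‖) := by
  obtain ⟨w, h1, h2⟩ := o.exists_pull r0 i j
  have h3 := o.P_zero j _ h1
  rw [map_sub, sub_eq_zero, o.P_r] at h3
  rw [← h3]
  refine (o.P_norm j w).trans ?_
  rcases (norm_nonneg w).eq_or_lt with h0 | h0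
  · rw [← h0] at h2 ⊢
    rw [mul_zero]
    rcases h2.eq_or_lt with h4 | h4
    · rw [← h4, mul_zero]
    · have h5 : 0 < ‖o.r r0 (j + i)‖ := by
        by_contra h
        have : ‖o.r r0 (j + i)‖ = 0 := le_antisymm (not_lt.1 h) (norm_nonneg _)
        rw [this, mul_zero] at h4
        exact lt_irrefl _ h4
      have hc : 0 ≤ o.cw := nonneg_of_mul_nonneg_left (o.cw_mul_nonneg _) h5
      positivity
  · have hc : 0 ≤ o.cw := nonneg_of_mul_nonneg_left (o.cw_mul_nonneg _) h0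
    gcongr

/-! ### The smooth part -/

/-- accumulated smooth part of `N T · (r T)` -/
def Q (r0 : W) : ℕ → E → ℝ
  | 0 => fun _ => 0
  | T + 1 => fun x => Q r0 T ((o.A T).symm x) +
      (o.Er T x (o.L T (o.r r0 T)) - o.N (T + 1) x (o.sS r0 T))

theorem N_r {r0 : W} (h0 : o.P 0 r0 = r0) (T : ℕ) : ∀ x ∈ ball (0 : E) o.R,
    o.N T x (o.r r0 T) = o.N 0 (o.B T x) r0 + o.Q r0 T x := by
  induction T with
  | zero =>
    intro x _
    simp [r, C, B, Q, h0]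
  | succ T ih =>
    intro x hx
    have e : o.r r0 (T + 1) = o.L T (o.r r0 T) - o.sS r0 T := by unfold sS; abel
    have h1 := o.coc T x hx (o.r r0 T)
    have h2 := ih _ (o.A_mem (T := T) hx)
    have e2 : o.Q r0 (T + 1) x = o.Q r0 T ((o.A T).symm x) +
      (o.Er T x (o.L T (o.r r0 T)) - o.N (T + 1) x (o.sS r0 T)) := rfl
    rw [e, map_sub, h1, h2, B_succ, e2]
    ring

theorem Q_step_smooth (r0 : W) (T : ℕ) : ContDiffOn ℝ ∞
    (fun x => o.Er T x (o.L T (o.r r0 T)) - o.N (T + 1) x (o.sS r0 T)) (ball 0 o.R) :=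
  ((o.Er_smooth T).clm_apply contDiffOn_const).sub (o.S_smooth (T + 1) _ (o.sS_mem r0 T))

theorem Q_smooth (r0 : W) (T : ℕ) : ContDiffOn ℝ ∞ (o.Q r0 T) (ball 0 o.R) := by
  induction T with
  | zero => exact contDiffOn_const
  | succ T ih => exact (o.smooth_comp T ih).add (o.Q_step_smooth r0 T)

theorem Q_step_bd (r0 : W) (T k : ℕ) : DB (ball 0 o.R) k (o.M k * (2 + o.cw) * ‖o.r r0 T‖)
    (fun x => o.Er T x (o.L T (o.r r0 T)) - o.N (T + 1) x (o.sS r0 T)) := by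
  have hl := o.lam_pos
  have hl1 := o.lam_lt
  have hM := o.M_nonneg k
  have h3 : o.lam ^ 2 ≤ 1 := pow_le_one₀ hl.le hl1.le
  have h4 : ‖o.L T (o.r r0 T)‖ ≤ ‖o.r r0 T‖ := by
    have := o.L_bd T (o.r r0 T)
    nlinarith [norm_nonneg (o.r r0 T)]
  have h1 := db_const_clm isOpen_ball (ContinuousLinearMap.apply ℝ ℝ (o.L T (o.r r0 T)))
    (l := ‖o.r r0 T‖)
    ((ContinuousLinearMap.opNorm_le_bound _ (norm_nonneg _) fun f => by
      rw [ContinuousLinearMap.apply_apply, mul_comm]; exact f.le_opNorm _).trans h4)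
    (o.Er_smooth T) (o.Er_bd T k)
  have h2 := o.S_bd (T + 1) k _ (o.sS_mem r0 T)
  have h2' := db_const_clm isOpen_ball (-ContinuousLinearMap.id ℝ ℝ) (l := 1)
    (by rw [norm_neg]; exact ContinuousLinearMap.norm_id_le)
    (o.S_smooth (T + 1) _ (o.sS_mem r0 T)) h2
  have h5 := DB.add isOpen_ball ((o.Er_smooth T).clm_apply contDiffOn_const)
    ((-ContinuousLinearMap.id ℝ ℝ).contDiff.comp_contDiffOn
      (o.S_smooth (T + 1) _ (o.sS_mem r0 T))) h1 h2'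
  refine (h5.congr ?_).mono ?_
  · intro x _
    simp [sub_eq_add_neg]
  · have h6 := o.sS_norm r0 T
    calc ‖o.r r0 T‖ * o.M k + 1 * (o.M k * ‖o.sS r0 T‖)
        ≤ ‖o.r r0 T‖ * o.M k + 1 * (o.M k * ((1 + o.cw) * ‖o.r r0 T‖)) := by gcongr
      _ = o.M k * (2 + o.cw) * ‖o.r r0 T‖ := by ring

theorem Q_sum (r0 : W) (k T : ℕ) : DB (ball 0 o.R) k
    (o.M k * (2 + o.cw) * ∑ j ∈ Finset.range T, (o.lam ^ k) ^ (T - 1 - j) * ‖o.r r0 j‖)
    (o.Q r0 T) := by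
  induction T with
  | zero =>
    intro x hx
    have e : iteratedFDerivWithin ℝ k (o.Q r0 0) (ball 0 o.R) x = 0 := by
      have : o.Q r0 0 = fun _ => (0 : ℝ) := rfl
      rw [this]
      simp
    rw [e]
    simp
  | succ T ih =>
    have h1 := o.db_comp T (o.Q_smooth r0 T) ih
    refine (DB.add isOpen_ball (o.smooth_comp T (o.Q_smooth r0 T)) (o.Q_step_smooth r0 T) h1
      (o.Q_step_bd r0 T k)).mono (le_of_eq ?_)
    rw [Finset.sum_range_succ]
    have e : ∀ j ∈ Finset.range T, (o.lam ^ k) ^ (T + 1 - 1 - j) * ‖o.r r0 j‖ =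
        o.lam ^ k * ((o.lam ^ k) ^ (T - 1 - j) * ‖o.r r0 j‖) := by
      intro j hj
      rw [Finset.mem_range] at hj
      rw [show T + 1 - 1 - j = (T - 1 - j) + 1 by omega, pow_succ]
      ring
    rw [Finset.sum_congr rfl e, ← Finset.mul_sum]
    simp only [Nat.add_sub_cancel, Nat.sub_self, pow_zero, one_mul]
    ring

theorem Q_bd (r0 : W) {k : ℕ} (hk : 3 ≤ k) (T : ℕ) : DB (ball 0 o.R) k
    (o.M k * (2 + o.cw) * (o.cw * o.Lam / (1 - o.lam ^ 3 * o.Lam) * ‖o.r r0 T‖)) (o.Q r0 T) := by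
  have hl := o.lam_pos
  have hl1 := o.lam_lt
  have hM := o.M_nonneg k
  have hL := o.Lam_nonneg
  have hp := o.pinch
  rcases (norm_nonneg (o.r r0 T)).eq_or_lt with h0 | h0
  · -- everything vanishes
    have hz : ∀ j ≤ T, ‖o.r r0 j‖ = 0 := by
      intro j hj
      have := o.r_back r0 j (T - j)
      rw [show j + (T - j) = T by omega, ← h0, mul_zero, mul_zero] at this
      exact le_antisymm this (norm_nonneg _)
    refine (o.Q_sum r0 k T).mono ?_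
    rw [Finset.sum_eq_zero, ← h0]
    · simp
    · intro j hj
      rw [Finset.mem_range] at hj
      rw [hz j hj.le, mul_zero]
  have hc : 0 ≤ o.cw := nonneg_of_mul_nonneg_left (o.cw_mul_nonneg _) h0
  refine (o.Q_sum r0 k T).mono ?_
  have hk3 : o.lam ^ k ≤ o.lam ^ 3 := pow_le_pow_of_le_one hl.le hl1.le hk
  have hx : ∀ j ∈ Finset.range T, (o.lam ^ k) ^ (T - 1 - j) * ‖o.r r0 j‖ ≤
      o.cw * o.Lam * ‖o.r r0 T‖ * (o.lam ^ 3 * o.Lam) ^ (T - 1 - j) := by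
    intro j hj
    rw [Finset.mem_range] at hj
    have h1 := o.r_back r0 j (T - j)
    rw [show j + (T - j) = T by omega] at h1
    calc (o.lam ^ k) ^ (T - 1 - j) * ‖o.r r0 j‖
        ≤ (o.lam ^ 3) ^ (T - 1 - j) * (o.cw * (o.Lam ^ (T - j) * ‖o.r r0 T‖)) := by gcongr
      _ = o.cw * o.Lam * ‖o.r r0 T‖ * (o.lam ^ 3 * o.Lam) ^ (T - 1 - j) := by
        rw [show T - j = (T - 1 - j) + 1 by omega, pow_succ o.Lam, mul_pow]
        ring
  have hs : ∑ j ∈ Finset.range T, (o.lam ^ k) ^ (T - 1 - j) * ‖o.r r0 j‖ ≤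
      o.cw * o.Lam / (1 - o.lam ^ 3 * o.Lam) * ‖o.r r0 T‖ := by
    refine (Finset.sum_le_sum hx).trans ?_
    rw [← Finset.mul_sum, Finset.sum_range_reflect (fun i => (o.lam ^ 3 * o.Lam) ^ i) T]
    have hq : 0 ≤ o.lam ^ 3 * o.Lam := by positivity
    have hg : ∑ i ∈ Finset.range T, (o.lam ^ 3 * o.Lam) ^ i ≤ (1 - o.lam ^ 3 * o.Lam)⁻¹ := by
      rw [geom_sum_eq hp.ne]
      rw [← neg_div_neg_eq, neg_sub, neg_sub, div_eq_mul_inv]
      have : 0 ≤ (1 - o.lam ^ 3 * o.Lam)⁻¹ := by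
        rw [inv_nonneg]; linarith
      have h3 : 1 - (o.lam ^ 3 * o.Lam) ^ T ≤ 1 := by
        have : 0 ≤ (o.lam ^ 3 * o.Lam) ^ T := by positivity
        linarith
      nlinarith
    calc o.cw * o.Lam * ‖o.r r0 T‖ * ∑ i ∈ Finset.range T, (o.lam ^ 3 * o.Lam) ^ i
        ≤ o.cw * o.Lam * ‖o.r r0 T‖ * (1 - o.lam ^ 3 * o.Lam)⁻¹ := by gcongr
      _ = _ := by rw [div_eq_mul_inv]; ring
  gcongr

/-! ### The theorem -/

/-- constant of `zoom` -/
def K1 (k : ℕ) : ℝ := o.M k * (2 + o.cw) * (o.cw * o.Lam / (1 - o.lam ^ 3 * o.Lam))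

/-- constant of `zoom` -/
def K2 (k : ℕ) : ℝ := (1 + o.R) * ∑ i ∈ Finset.range (k + 1), (k.choose i : ℝ) * o.M i

theorem K2_nonneg (k : ℕ) : 0 ≤ o.K2 k := by
  have := o.R_pos
  unfold K2
  have h : ∀ i ∈ Finset.range (k + 1), 0 ≤ (k.choose i : ℝ) * o.M i := fun i _ =>
    mul_nonneg (Nat.cast_nonneg _) (o.M_nonneg i)
  have := Finset.sum_nonneg h
  positivity

/-- the smooth part of `N T · (r T)` -/
def f (ρ : E → W) (F : E → ℝ) (T : ℕ) (x : E) : ℝ :=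
  F (o.B T x) + o.H T x (ρ (o.B T x) - ρ 0) + o.Q (ρ 0) T x

variable {o}

/-- hypotheses on the section `ρ` (with values in the range of `P 0`) on the ball of radius `d` -/
structure Sec (o : Orb E W) (ρ : E → W) (F : E → ℝ) (d δ U : ℝ) (T : ℕ) : Prop where
  d_pos : 0 < d
  small : o.lam ^ T * o.R ≤ d
  ρ_smooth : ContDiffOn ℝ ∞ ρ (ball 0 d)
  F_smooth : ContDiffOn ℝ ∞ F (ball 0 d)
  P_ρ : o.P 0 (ρ 0) = ρ 0
  close : ∀ y ∈ ball (0 : E) d, |o.N 0 y (ρ y) - F y| ≤ δ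
  U_nonneg : 0 ≤ U
  lip : ∀ y ∈ ball (0 : E) d, ‖fderiv ℝ ρ y‖ ≤ U

variable {ρ : E → W} {F : E → ℝ} {d δ U : ℝ} {T : ℕ}

theorem Sec.B_mem (h : Sec o ρ F d δ U T) {x : E} (hx : x ∈ ball (0 : E) o.R) :
    o.B T x ∈ ball (0 : E) d := by
  rw [mem_ball_zero_iff] at hx ⊢
  have hl := o.lam_pos
  calc ‖o.B T x‖ ≤ o.lam ^ T * ‖x‖ := o.B_bd T x
    _ < o.lam ^ T * o.R := by gcongr
    _ ≤ d := h.small

theorem Sec.diff_bd (h : Sec o ρ F d δ U T) {x : E} (hx : x ∈ ball (0 : E) o.R) :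
    ‖ρ (o.B T x) - ρ 0‖ ≤ U * (o.lam ^ T * o.R) := by
  have h1 : DifferentiableOn ℝ ρ (ball 0 d) := h.ρ_smooth.differentiableOn (by simp)
  have h2 := (convex_ball (0 : E) d).norm_image_sub_le_of_norm_fderiv_le
    (fun y hy => (h1 y hy).differentiableAt (isOpen_ball.mem_nhds hy)) h.lip
    (mem_ball_self h.d_pos) (h.B_mem hx)
  refine h2.trans ?_
  rw [sub_zero]
  have hU := h.U_nonneg
  have hl := o.lam_pos
  rw [mem_ball_zero_iff] at hx
  have h3 := o.B_bd T x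
  calc U * ‖o.B T x‖ ≤ U * (o.lam ^ T * ‖x‖) := by gcongr
    _ ≤ U * (o.lam ^ T * o.R) := by gcongr

theorem Sec.approx (h : Sec o ρ F d δ U T) {x : E} (hx : x ∈ ball (0 : E) o.R) :
    |o.N T x (o.r (ρ 0) T) - o.f ρ F T x| ≤ δ + o.M 0 * o.R * (o.lam ^ (3 * T) * U) := by
  have hl := o.lam_pos
  have h1 := o.N_r h.P_ρ T x hx
  have h2 := o.N_C T x hx (ρ (o.B T x) - ρ 0)
  have h3 := h.close _ (h.B_mem hx)
  have h4 : |o.N T x (o.C T (ρ (o.B T x) - ρ 0))| ≤ o.M 0 * o.R * (o.lam ^ (3 * T) * U) := by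
    have h5 := (o.N T x).le_opNorm (o.C T (ρ (o.B T x) - ρ 0))
    rw [Real.norm_eq_abs] at h5
    refine h5.trans ?_
    have h6 := o.C_bd T (ρ (o.B T x) - ρ 0)
    have h7 := h.diff_bd hx
    have h8 := o.N_bd T x hx
    have hM := o.M_nonneg 0
    calc ‖o.N T x‖ * ‖o.C T (ρ (o.B T x) - ρ 0)‖
        ≤ o.M 0 * ((o.lam ^ 2) ^ T * (U * (o.lam ^ T * o.R))) := by gcongr; exact h6.trans (by gcongr)
      _ = o.M 0 * o.R * (o.lam ^ (3 * T) * U) := by
        rw [← pow_mul, show 3 * T = 2 * T + T by ring, pow_add]; ring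
  have e : o.N T x (o.r (ρ 0) T) - o.f ρ F T x =
      (o.N 0 (o.B T x) (ρ (o.B T x)) - F (o.B T x)) - o.N T x (o.C T (ρ (o.B T x) - ρ 0)) := by
    rw [h1, h2]
    unfold f
    rw [map_sub, map_sub]
    ring
  rw [e]
  refine (abs_sub _ _).trans ?_
  exact add_le_add h3 h4

theorem Sec.f_smooth (h : Sec o ρ F d δ U T) : ContDiffOn ℝ ∞ (o.f ρ F T) (ball 0 o.R) := by
  have hl := o.lam_pos
  have hb : (0 : ℝ) ≤ o.lam ^ T := by positivity
  have h1 := contDiffOn_comp_ball (o.B T) (o.B_bd T) hb h.small h.d_pos h.F_smooth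
  have h2 := contDiffOn_comp_ball (o.B T) (o.B_bd T) hb h.small h.d_pos h.ρ_smooth
  exact (h1.add ((o.H_smooth T).clm_apply (h2.sub contDiffOn_const))).add (o.Q_smooth _ T)

theorem Sec.f_bd (h : Sec o ρ F d δ U T) {k : ℕ} (hk : 3 ≤ k) {MF : ℝ}
    (hF : DB (ball 0 d) k MF F) (hρ : ∀ i, 1 ≤ i → i ≤ k → DB (ball 0 d) i U ρ) :
    DB (ball 0 o.R) k (o.lam ^ (k * T) * MF + o.K2 k * (T * (o.lam ^ (3 * T) * U))
      + o.K1 k * ‖o.r (ρ 0) T‖) (o.f ρ F T) := by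
  have hl := o.lam_pos
  have hl1 := o.lam_lt.le
  have hR := o.R_pos
  have hb : (0 : ℝ) ≤ o.lam ^ T := by positivity
  have hU := h.U_nonneg
  have s1 := contDiffOn_comp_ball (o.B T) (o.B_bd T) hb h.small h.d_pos h.F_smooth
  have s2 := (contDiffOn_comp_ball (o.B T) (o.B_bd T) hb h.small h.d_pos h.ρ_smooth).sub
    (contDiffOn_const (c := ρ 0))
  have b1 := DB.comp_ball (o.B T) (o.B_bd T) hb h.small h.d_pos h.F_smooth hF
  have b3 := o.Q_bd (ρ 0) hk T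
  -- the section
  have b2 : ∀ i ≤ k, DB (ball 0 o.R) i ((1 + o.R) * U * o.lam ^ (max i 1 * T))
      (fun x => ρ (o.B T x) - ρ 0) := by
    intro i hi
    rcases Nat.eq_zero_or_pos i with h0 | h0
    · subst h0
      rw [db_zero_iff]
      intro x hx
      refine (h.diff_bd hx).trans ?_
      simp only [show max 0 1 = 1 from rfl, one_mul]
      have : 0 ≤ U * o.lam ^ T := by positivity
      nlinarith
    · have c1 := DB.comp_ball (o.B T) (o.B_bd T) hb h.small h.d_pos h.ρ_smooth (hρ i h0 hi)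
      have c2 : DB (ball (0 : E) o.R) i 0 (fun _ : E => -ρ 0) := by
        intro x hx
        obtain ⟨i', rfl⟩ : ∃ i', i = i' + 1 := ⟨i - 1, by omega⟩
        rw [iteratedFDerivWithin_succ_const]
        simp
      have c3 := DB.add isOpen_ball
        (contDiffOn_comp_ball (o.B T) (o.B_bd T) hb h.small h.d_pos h.ρ_smooth)
        contDiffOn_const c1 c2
      refine (c3.congr fun x _ => sub_eq_add_neg _ _).mono ?_
      rw [max_eq_left h0, add_zero, ← pow_mul, mul_comm T i]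
      have : 0 ≤ U * o.lam ^ (i * T) := by positivity
      nlinarith
  have b4 := DB.clm_apply isOpen_ball (o.H_smooth T) s2 (fun i _ => o.H_bd i T) b2
  have b5 := DB.add isOpen_ball (s1.add ((o.H_smooth T).clm_apply s2)) (o.Q_smooth (ρ 0) T)
    (DB.add isOpen_ball s1 ((o.H_smooth T).clm_apply s2) b1 b4) b3
  refine DB.mono (f := o.f ρ F T) b5 ?_
  have e1 : (o.lam ^ T) ^ k * MF = o.lam ^ (k * T) * MF := by rw [← pow_mul, mul_comm T k]
  have e2 : o.M k * (2 + o.cw) * (o.cw * o.Lam / (1 - o.lam ^ 3 * o.Lam) * ‖o.r (ρ 0) T‖) =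
      o.K1 k * ‖o.r (ρ 0) T‖ := by unfold K1; ring
  have e3 : ∑ i ∈ Finset.range (k + 1), (k.choose i : ℝ) *
      (o.M i * T * o.lam ^ (min i 2 * T)) * ((1 + o.R) * U * o.lam ^ (max (k - i) 1 * T)) ≤
      o.K2 k * (T * (o.lam ^ (3 * T) * U)) := by
    unfold K2
    rw [Finset.mul_sum, Finset.sum_mul]
    refine Finset.sum_le_sum fun i hi => ?_
    rw [Finset.mem_range] at hi
    have hM := o.M_nonneg i
    have h5 : o.lam ^ (min i 2 * T + max (k - i) 1 * T) ≤ o.lam ^ (3 * T) := by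
      refine pow_le_pow_of_le_one hl.le hl1 ?_
      rw [← Nat.add_mul]
      refine Nat.mul_le_mul_right _ ?_
      omega
    rw [pow_add] at h5
    calc (k.choose i : ℝ) * (o.M i * T * o.lam ^ (min i 2 * T)) *
          ((1 + o.R) * U * o.lam ^ (max (k - i) 1 * T))
        = (1 + o.R) * ((k.choose i : ℝ) * o.M i) * (T * ((o.lam ^ (min i 2 * T) *
            o.lam ^ (max (k - i) 1 * T)) * U)) := by ring
      _ ≤ (1 + o.R) * ((k.choose i : ℝ) * o.M i) * (T * (o.lam ^ (3 * T) * U)) := by gcongr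
  rw [e1, e2]
  gcongr

theorem Sec.r_zero (h : Sec o ρ F d δ U T) : ‖ρ 0‖ ≤ o.cw * (o.Lam ^ T * ‖o.r (ρ 0) T‖) := by
  have h1 := o.r_back (ρ 0) 0 T
  rw [zero_add] at h1
  have h2 : o.r (ρ 0) 0 = ρ 0 := h.P_ρ
  rw [h2] at h1
  exact h1

end Orb

end Vale.Agent.P207.H751
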